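import Vale.Agent.P333.CombFalse4

/-! The greedy superstring conjecture is false, over every alphabet with two letters and for
arbitrarily large instances, whatever the way to break ties; the ratio is at least `2.176`. -/

namespace Vale.Agent.Results.P333.GreedyFalse

open Vale.Agent.P333

universe u

theorem result {α : Type u} [DecidableEq α] [Nontrivial α] (N : ℕ) :
    ∃ (S : Finset (List α)) (T : List α),
      (∀ s ∈ S, s <:+: T) ∧
      (∀ U : List α, (∀ s ∈ S, s <:+: U) → N ≤ U.length) ∧
      (∃ G : List α, IsGreedyOutput S G) ∧
      ∀ G : List α, IsGreedyOutput S G →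
        2176 * T.length ≤ 1000 * G.length ∧ 2 * T.length + N < G.length :=
  Comb.greedyFalse4 N

end Vale.Agent.Results.P333.GreedyFalse
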